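import Vale.Agent.P232.Main

open MeasureTheory Vale.Agent.P232

namespace Vale.Agent.Results.P232.Full

theorem result : ∀ V : ℝ, 0 < V → V < 1 →
    profile V = ENNReal.ofReal (Jt V) ∧
    ∀ E : Set (Fin 3 → UnitAddCircle), NullMeasurableSet E volume →
      volume E = ENNReal.ofReal V → perim E = profile V →
      ∃ (c : Fin 3 → UnitAddCircle) (r : ℝ) (M : Set (Fin 3 → UnitAddCircle)),
        0 < r ∧ r < 1 / 2 ∧ (M = ball c r ∨ ∃ k, M = tube k c r ∨ M = slab k c r) ∧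
        (E =ᵐ[volume] M ∨ E =ᵐ[volume] (Mᶜ : Set (Fin 3 → UnitAddCircle))) :=
  fun _ h0 h1 => ⟨profile_eq h0 h1, fun E hE hV hm => classify h0 h1 E hE hV hm⟩

end Vale.Agent.Results.P232.Full
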